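import Vale.Agent.Lib.P062.Defs

/-!
A finite, zone based certificate for Maker wins, and its soundness.

Cells are encoded by natural numbers `i`, with column `i % 32 - 16` and row `i / 32 - 16`;
finite sets of cells are bit masks.

A certificate is a tree.  `w k` says that Maker already owns the copy with code `k`.
`p c t` says: Maker claims cell `c`.  `t` is then a collection (built with `a`) of
alternative continuations.  Each continuation has a zone: the set of cells which Maker plans
to claim in it.  If the zones of the alternatives have empty intersection,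
then whatever single cell Breaker claims, one alternative is not disturbed.
`r M t` is the certificate `t`, together with a declaration that Maker's mask is `M`: it
lets the kernel cache the work on shared subtrees.
`f c e k t` abbreviates: Maker claims `c`, threatening to complete the copy `k` at `e`; unless
Breaker claims `e`, Maker does and wins; `t` is the continuation when Breaker does.
`d c e1 k1 e2 k2` abbreviates: Maker claims `c`, threatening both copies `k1` at `e1` and
`k2` at `e2`, so that Breaker cannot stop both.
-/

namespace Vale.Agent.Lib.P062.V2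

/-- The cell with code `i`. -/
def cellOf (i : Nat) : Cell :=
  (((i % 32 : Nat) : Int) - 16, ((i / 32 : Nat) : Int) - 16)

theorem cellOf_injective {i j : Nat} (h : cellOf i = cellOf j) : i = j := by
  simp only [cellOf, Prod.mk.injEq, sub_left_inj, Nat.cast_inj] at h
  omega

/-- The set of cells whose codes are the set bits of `m`. -/
def maskCells (m : Nat) : Finset Cell :=
  ((Finset.range m).filter (fun i => m.testBit i = true)).image cellOf

theorem mem_maskCells {m : Nat} {i : Nat} : cellOf i ∈ maskCells m ↔ m.testBit i = true := by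
  constructor
  · intro h
    obtain ⟨j, hj, hji⟩ := Finset.mem_image.1 h
    have := cellOf_injective hji
    subst this
    exact (Finset.mem_filter.1 hj).2
  · intro h
    refine Finset.mem_image.2 ⟨i, Finset.mem_filter.2 ⟨Finset.mem_range.2 ?_, h⟩, rfl⟩
    have h1 := Nat.ge_two_pow_of_testBit h
    have h2 : i < 2 ^ i := Nat.lt_two_pow_self
    omega

theorem exists_code_of_mem {m : Nat} {q : Cell} (h : q ∈ maskCells m) :
    ∃ i, q = cellOf i ∧ m.testBit i = true := by
  obtain ⟨j, hj, rfl⟩ := Finset.mem_image.1 h
  exact ⟨j, rfl, (Finset.mem_filter.1 hj).2⟩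

theorem maskCells_zero : maskCells 0 = ∅ := by
  simp [maskCells]

theorem maskCells_or_bit (m c : Nat) :
    maskCells (m ||| (1 <<< c)) = insert (cellOf c) (maskCells m) := by
  ext x
  constructor
  · intro h
    obtain ⟨j, rfl, hj'⟩ := exists_code_of_mem h
    rw [Nat.testBit_or, Bool.or_eq_true] at hj'
    rcases hj' with hj' | hj'
    · exact Finset.mem_insert_of_mem (mem_maskCells.2 hj')
    · rw [Nat.one_shiftLeft, Nat.testBit_two_pow] at hj'
      simp only [decide_eq_true_eq] at hj'
      subst hj'
      exact Finset.mem_insert_self _ _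
  · intro h
    rcases Finset.mem_insert.1 h with rfl | h
    · apply mem_maskCells.2
      rw [Nat.testBit_or, Nat.one_shiftLeft, Nat.testBit_two_pow]
      simp
    · obtain ⟨j, rfl, hj⟩ := exists_code_of_mem h
      apply mem_maskCells.2
      rw [Nat.testBit_or, hj]
      simp

theorem mem_mask_or_left {m n : Nat} {x : Cell} (h : x ∈ maskCells m) :
    x ∈ maskCells (m ||| n) := by
  obtain ⟨j, rfl, hj⟩ := exists_code_of_mem h
  apply mem_maskCells.2
  rw [Nat.testBit_or, hj]
  simp

theorem mem_mask_or_right {m n : Nat} {x : Cell} (h : x ∈ maskCells n) :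
    x ∈ maskCells (m ||| n) := by
  obtain ⟨j, rfl, hj⟩ := exists_code_of_mem h
  apply mem_maskCells.2
  rw [Nat.testBit_or, hj]
  simp

theorem mem_mask_and {m n : Nat} {x : Cell} (h1 : x ∈ maskCells m) (h2 : x ∈ maskCells n) :
    x ∈ maskCells (m &&& n) := by
  obtain ⟨j, rfl, hj⟩ := exists_code_of_mem h1
  apply mem_maskCells.2
  rw [Nat.testBit_and, hj, mem_maskCells.1 h2]
  simp

/-- Certificates for Maker wins. -/
inductive Cert where
  | w (k : Nat) : Cert
  | p (c : Nat) (t : Cert) : Cert
  | a (s t : Cert) : Cert
  | r (M : Nat) (t : Cert) : Cert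
  | f (c e k : Nat) (t : Cert) : Cert
  | d (c e1 k1 e2 k2 : Nat) : Cert

/-- The bit patterns of Snaky in the eight orientations, 160 bits each. -/
def tmplTable : Nat := 9693142210215036416872403986424086449380212142312237141263020727592564715705467244919196496741261399770726704203050587720212142429721562925785577373042288201888439607510677916318163427532169274231855232206893948616370907791872905511354348657023056963901736799816535868697820945498827440999865828244685932847707126588038803723012304086275158110011688837942766075212180089733135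

/-- The bit pattern of Snaky in orientation `o`. -/
def tmpl (o : Nat) : Nat :=
  Nat.land (Nat.shiftRight tmplTable (Nat.mul 160 o)) 1461501637330902918203684832716283019655932542975

/-- Maker, with mask `M`, owns the copy with code `k`: the low ten bits of `k` are the code of
the lower-left corner of the bounding box, the others are the orientation. -/
def owns (M k : Nat) : Bool :=
  Nat.blt k 8192 && Nat.blt (k % 32) 28 &&
    Nat.beq (Nat.land (Nat.shiftRight M (k % 1024)) (tmpl (k / 1024))) (tmpl (k / 1024))

theorem bit_of_land {M base t e : Nat} (h : Nat.land (Nat.shiftRight M base) t = t)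
    (he : t.testBit e = true) : M.testBit (base + e) = true := by
  have h1 : ((M >>> base) &&& t).testBit e = t.testBit e := by
    have h2 : (M >>> base) &&& t = t := h
    rw [h2]
  rw [Nat.testBit_and, he, Bool.and_true, Nat.testBit_shiftRight] at h1
  rw [h1]

theorem cellOf_add (base dx dy : Nat) (h : base % 32 + dx < 32) :
    cellOf (base + (dx + 32 * dy)) =
      (((base % 32 : Nat) : Int) - 16 + dx, ((base / 32 : Nat) : Int) - 16 + dy) := by
  simp only [cellOf, Prod.mk.injEq]
  constructor <;> omega

theorem mem_of_bit {M i : Nat} {q : Cell} (h : M.testBit i = true) (hq : cellOf i = q) :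
    q ∈ maskCells M := by
  rw [← hq]; exact mem_maskCells.2 h

theorem copy_of_cells {S : Finset Cell} (t : Cell) (swap : Bool) (a b : Int)
    (ha : a = 1 ∨ a = -1) (hb : b = 1 ∨ b = -1)
    (h0 : t + act swap a b (0, 0) ∈ S) (h1 : t + act swap a b (1, 0) ∈ S)
    (h2 : t + act swap a b (2, 0) ∈ S) (h3 : t + act swap a b (3, 0) ∈ S)
    (h4 : t + act swap a b (3, 1) ∈ S) (h5 : t + act swap a b (4, 1) ∈ S) :
    ∃ C, IsCopy C ∧ C ⊆ S := by
  refine ⟨snaky.image (fun p => t + act swap a b p), ⟨t, swap, a, b, ha, hb, rfl⟩, ?_⟩
  intro q hq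
  obtain ⟨p, hp, rfl⟩ := Finset.mem_image.1 hq
  simp only [snaky, Finset.mem_insert, Finset.mem_singleton] at hp
  rcases hp with rfl | rfl | rfl | rfl | rfl | rfl <;> assumption

theorem owns_sound_0 {M base : Nat} (hw : base % 32 + 4 < 32)
    (h : Nat.land (Nat.shiftRight M base) 103079215119 = 103079215119) :
    ∃ C, IsCopy C ∧ C ⊆ maskCells M := by
  refine copy_of_cells (((base % 32 : Nat) : Int) - 16 + 0, ((base / 32 : Nat) : Int) - 16 + 0) false 1 1 (by simp) (by simp) ?_ ?_ ?_ ?_ ?_ ?_
  · refine mem_of_bit (bit_of_land (e := 0 + 32 * 0) h (by decide)) ?_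
    rw [cellOf_add base 0 0 (by omega)]
    simp only [act, Prod.mk_add_mk, Prod.mk.injEq]
    simp
    try omega
  · refine mem_of_bit (bit_of_land (e := 1 + 32 * 0) h (by decide)) ?_
    rw [cellOf_add base 1 0 (by omega)]
    simp only [act, Prod.mk_add_mk, Prod.mk.injEq]
    simp
    try omega
  · refine mem_of_bit (bit_of_land (e := 2 + 32 * 0) h (by decide)) ?_
    rw [cellOf_add base 2 0 (by omega)]
    simp only [act, Prod.mk_add_mk, Prod.mk.injEq]
    simp
    try omega
  · refine mem_of_bit (bit_of_land (e := 3 + 32 * 0) h (by decide)) ?_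
    rw [cellOf_add base 3 0 (by omega)]
    simp only [act, Prod.mk_add_mk, Prod.mk.injEq]
    simp
    try omega
  · refine mem_of_bit (bit_of_land (e := 3 + 32 * 1) h (by decide)) ?_
    rw [cellOf_add base 3 1 (by omega)]
    simp only [act, Prod.mk_add_mk, Prod.mk.injEq]
    simp
    try omega
  · refine mem_of_bit (bit_of_land (e := 4 + 32 * 1) h (by decide)) ?_
    rw [cellOf_add base 4 1 (by omega)]
    simp only [act, Prod.mk_add_mk, Prod.mk.injEq]
    simp
    try omega

theorem owns_sound_1 {M base : Nat} (hw : base % 32 + 4 < 32)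
    (h : Nat.land (Nat.shiftRight M base) 12884901918 = 12884901918) :
    ∃ C, IsCopy C ∧ C ⊆ maskCells M := by
  refine copy_of_cells (((base % 32 : Nat) : Int) - 16 + 4, ((base / 32 : Nat) : Int) - 16 + 0) false (-1) 1 (by simp) (by simp) ?_ ?_ ?_ ?_ ?_ ?_
  · refine mem_of_bit (bit_of_land (e := 4 + 32 * 0) h (by decide)) ?_
    rw [cellOf_add base 4 0 (by omega)]
    simp only [act, Prod.mk_add_mk, Prod.mk.injEq]
    simp
    try omega
  · refine mem_of_bit (bit_of_land (e := 3 + 32 * 0) h (by decide)) ?_
    rw [cellOf_add base 3 0 (by omega)]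
    simp only [act, Prod.mk_add_mk, Prod.mk.injEq]
    simp
    try omega
  · refine mem_of_bit (bit_of_land (e := 2 + 32 * 0) h (by decide)) ?_
    rw [cellOf_add base 2 0 (by omega)]
    simp only [act, Prod.mk_add_mk, Prod.mk.injEq]
    simp
    try omega
  · refine mem_of_bit (bit_of_land (e := 1 + 32 * 0) h (by decide)) ?_
    rw [cellOf_add base 1 0 (by omega)]
    simp only [act, Prod.mk_add_mk, Prod.mk.injEq]
    simp
    try omega
  · refine mem_of_bit (bit_of_land (e := 1 + 32 * 1) h (by decide)) ?_
    rw [cellOf_add base 1 1 (by omega)]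
    simp only [act, Prod.mk_add_mk, Prod.mk.injEq]
    simp
    try omega
  · refine mem_of_bit (bit_of_land (e := 0 + 32 * 1) h (by decide)) ?_
    rw [cellOf_add base 0 1 (by omega)]
    simp only [act, Prod.mk_add_mk, Prod.mk.injEq]
    simp
    try omega

theorem owns_sound_2 {M base : Nat} (hw : base % 32 + 4 < 32)
    (h : Nat.land (Nat.shiftRight M base) 64424509464 = 64424509464) :
    ∃ C, IsCopy C ∧ C ⊆ maskCells M := by
  refine copy_of_cells (((base % 32 : Nat) : Int) - 16 + 0, ((base / 32 : Nat) : Int) - 16 + 1) false 1 (-1) (by simp) (by simp) ?_ ?_ ?_ ?_ ?_ ?_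
  · refine mem_of_bit (bit_of_land (e := 0 + 32 * 1) h (by decide)) ?_
    rw [cellOf_add base 0 1 (by omega)]
    simp only [act, Prod.mk_add_mk, Prod.mk.injEq]
    simp
    try omega
  · refine mem_of_bit (bit_of_land (e := 1 + 32 * 1) h (by decide)) ?_
    rw [cellOf_add base 1 1 (by omega)]
    simp only [act, Prod.mk_add_mk, Prod.mk.injEq]
    simp
    try omega
  · refine mem_of_bit (bit_of_land (e := 2 + 32 * 1) h (by decide)) ?_
    rw [cellOf_add base 2 1 (by omega)]
    simp only [act, Prod.mk_add_mk, Prod.mk.injEq]
    simp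
    try omega
  · refine mem_of_bit (bit_of_land (e := 3 + 32 * 1) h (by decide)) ?_
    rw [cellOf_add base 3 1 (by omega)]
    simp only [act, Prod.mk_add_mk, Prod.mk.injEq]
    simp
    try omega
  · refine mem_of_bit (bit_of_land (e := 3 + 32 * 0) h (by decide)) ?_
    rw [cellOf_add base 3 0 (by omega)]
    simp only [act, Prod.mk_add_mk, Prod.mk.injEq]
    simp
    try omega
  · refine mem_of_bit (bit_of_land (e := 4 + 32 * 0) h (by decide)) ?_
    rw [cellOf_add base 4 0 (by omega)]
    simp only [act, Prod.mk_add_mk, Prod.mk.injEq]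
    simp
    try omega

theorem owns_sound_3 {M base : Nat} (hw : base % 32 + 4 < 32)
    (h : Nat.land (Nat.shiftRight M base) 128849018883 = 128849018883) :
    ∃ C, IsCopy C ∧ C ⊆ maskCells M := by
  refine copy_of_cells (((base % 32 : Nat) : Int) - 16 + 4, ((base / 32 : Nat) : Int) - 16 + 1) false (-1) (-1) (by simp) (by simp) ?_ ?_ ?_ ?_ ?_ ?_
  · refine mem_of_bit (bit_of_land (e := 4 + 32 * 1) h (by decide)) ?_
    rw [cellOf_add base 4 1 (by omega)]
    simp only [act, Prod.mk_add_mk, Prod.mk.injEq]
    simp
    try omega
  · refine mem_of_bit (bit_of_land (e := 3 + 32 * 1) h (by decide)) ?_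
    rw [cellOf_add base 3 1 (by omega)]
    simp only [act, Prod.mk_add_mk, Prod.mk.injEq]
    simp
    try omega
  · refine mem_of_bit (bit_of_land (e := 2 + 32 * 1) h (by decide)) ?_
    rw [cellOf_add base 2 1 (by omega)]
    simp only [act, Prod.mk_add_mk, Prod.mk.injEq]
    simp
    try omega
  · refine mem_of_bit (bit_of_land (e := 1 + 32 * 1) h (by decide)) ?_
    rw [cellOf_add base 1 1 (by omega)]
    simp only [act, Prod.mk_add_mk, Prod.mk.injEq]
    simp
    try omega
  · refine mem_of_bit (bit_of_land (e := 1 + 32 * 0) h (by decide)) ?_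
    rw [cellOf_add base 1 0 (by omega)]
    simp only [act, Prod.mk_add_mk, Prod.mk.injEq]
    simp
    try omega
  · refine mem_of_bit (bit_of_land (e := 0 + 32 * 0) h (by decide)) ?_
    rw [cellOf_add base 0 0 (by omega)]
    simp only [act, Prod.mk_add_mk, Prod.mk.injEq]
    simp
    try omega

theorem owns_sound_4 {M base : Nat} (hw : base % 32 + 1 < 32)
    (h : Nat.land (Nat.shiftRight M base) 680564734079561414487988971722172792833 = 680564734079561414487988971722172792833) :
    ∃ C, IsCopy C ∧ C ⊆ maskCells M := by
  refine copy_of_cells (((base % 32 : Nat) : Int) - 16 + 0, ((base / 32 : Nat) : Int) - 16 + 0) true 1 1 (by simp) (by simp) ?_ ?_ ?_ ?_ ?_ ?_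
  · refine mem_of_bit (bit_of_land (e := 0 + 32 * 0) h (by decide)) ?_
    rw [cellOf_add base 0 0 (by omega)]
    simp only [act, Prod.mk_add_mk, Prod.mk.injEq]
    simp
    try omega
  · refine mem_of_bit (bit_of_land (e := 0 + 32 * 1) h (by decide)) ?_
    rw [cellOf_add base 0 1 (by omega)]
    simp only [act, Prod.mk_add_mk, Prod.mk.injEq]
    simp
    try omega
  · refine mem_of_bit (bit_of_land (e := 0 + 32 * 2) h (by decide)) ?_
    rw [cellOf_add base 0 2 (by omega)]
    simp only [act, Prod.mk_add_mk, Prod.mk.injEq]
    simp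
    try omega
  · refine mem_of_bit (bit_of_land (e := 0 + 32 * 3) h (by decide)) ?_
    rw [cellOf_add base 0 3 (by omega)]
    simp only [act, Prod.mk_add_mk, Prod.mk.injEq]
    simp
    try omega
  · refine mem_of_bit (bit_of_land (e := 1 + 32 * 3) h (by decide)) ?_
    rw [cellOf_add base 1 3 (by omega)]
    simp only [act, Prod.mk_add_mk, Prod.mk.injEq]
    simp
    try omega
  · refine mem_of_bit (bit_of_land (e := 1 + 32 * 4) h (by decide)) ?_
    rw [cellOf_add base 1 4 (by omega)]
    simp only [act, Prod.mk_add_mk, Prod.mk.injEq]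
    simp
    try omega

theorem owns_sound_5 {M base : Nat} (hw : base % 32 + 1 < 32)
    (h : Nat.land (Nat.shiftRight M base) 340282367158622951043061108368409100290 = 340282367158622951043061108368409100290) :
    ∃ C, IsCopy C ∧ C ⊆ maskCells M := by
  refine copy_of_cells (((base % 32 : Nat) : Int) - 16 + 1, ((base / 32 : Nat) : Int) - 16 + 0) true (-1) 1 (by simp) (by simp) ?_ ?_ ?_ ?_ ?_ ?_
  · refine mem_of_bit (bit_of_land (e := 1 + 32 * 0) h (by decide)) ?_
    rw [cellOf_add base 1 0 (by omega)]
    simp only [act, Prod.mk_add_mk, Prod.mk.injEq]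
    simp
    try omega
  · refine mem_of_bit (bit_of_land (e := 1 + 32 * 1) h (by decide)) ?_
    rw [cellOf_add base 1 1 (by omega)]
    simp only [act, Prod.mk_add_mk, Prod.mk.injEq]
    simp
    try omega
  · refine mem_of_bit (bit_of_land (e := 1 + 32 * 2) h (by decide)) ?_
    rw [cellOf_add base 1 2 (by omega)]
    simp only [act, Prod.mk_add_mk, Prod.mk.injEq]
    simp
    try omega
  · refine mem_of_bit (bit_of_land (e := 1 + 32 * 3) h (by decide)) ?_
    rw [cellOf_add base 1 3 (by omega)]
    simp only [act, Prod.mk_add_mk, Prod.mk.injEq]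
    simp
    try omega
  · refine mem_of_bit (bit_of_land (e := 0 + 32 * 3) h (by decide)) ?_
    rw [cellOf_add base 0 3 (by omega)]
    simp only [act, Prod.mk_add_mk, Prod.mk.injEq]
    simp
    try omega
  · refine mem_of_bit (bit_of_land (e := 0 + 32 * 4) h (by decide)) ?_
    rw [cellOf_add base 0 4 (by omega)]
    simp only [act, Prod.mk_add_mk, Prod.mk.injEq]
    simp
    try omega

theorem owns_sound_6 {M base : Nat} (hw : base % 32 + 1 < 32)
    (h : Nat.land (Nat.shiftRight M base) 340282367000166625996085689111906615298 = 340282367000166625996085689111906615298) :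
    ∃ C, IsCopy C ∧ C ⊆ maskCells M := by
  refine copy_of_cells (((base % 32 : Nat) : Int) - 16 + 0, ((base / 32 : Nat) : Int) - 16 + 4) true 1 (-1) (by simp) (by simp) ?_ ?_ ?_ ?_ ?_ ?_
  · refine mem_of_bit (bit_of_land (e := 0 + 32 * 4) h (by decide)) ?_
    rw [cellOf_add base 0 4 (by omega)]
    simp only [act, Prod.mk_add_mk, Prod.mk.injEq]
    simp
    try omega
  · refine mem_of_bit (bit_of_land (e := 0 + 32 * 3) h (by decide)) ?_
    rw [cellOf_add base 0 3 (by omega)]
    simp only [act, Prod.mk_add_mk, Prod.mk.injEq]
    simp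
    try omega
  · refine mem_of_bit (bit_of_land (e := 0 + 32 * 2) h (by decide)) ?_
    rw [cellOf_add base 0 2 (by omega)]
    simp only [act, Prod.mk_add_mk, Prod.mk.injEq]
    simp
    try omega
  · refine mem_of_bit (bit_of_land (e := 0 + 32 * 1) h (by decide)) ?_
    rw [cellOf_add base 0 1 (by omega)]
    simp only [act, Prod.mk_add_mk, Prod.mk.injEq]
    simp
    try omega
  · refine mem_of_bit (bit_of_land (e := 1 + 32 * 1) h (by decide)) ?_
    rw [cellOf_add base 1 1 (by omega)]
    simp only [act, Prod.mk_add_mk, Prod.mk.injEq]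
    simp
    try omega
  · refine mem_of_bit (bit_of_land (e := 1 + 32 * 0) h (by decide)) ?_
    rw [cellOf_add base 1 0 (by omega)]
    simp only [act, Prod.mk_add_mk, Prod.mk.injEq]
    simp
    try omega

theorem owns_sound_7 {M base : Nat} (hw : base % 32 + 1 < 32)
    (h : Nat.land (Nat.shiftRight M base) 680564734000333251992171378210928328705 = 680564734000333251992171378210928328705) :
    ∃ C, IsCopy C ∧ C ⊆ maskCells M := by
  refine copy_of_cells (((base % 32 : Nat) : Int) - 16 + 1, ((base / 32 : Nat) : Int) - 16 + 4) true (-1) (-1) (by simp) (by simp) ?_ ?_ ?_ ?_ ?_ ?_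
  · refine mem_of_bit (bit_of_land (e := 1 + 32 * 4) h (by decide)) ?_
    rw [cellOf_add base 1 4 (by omega)]
    simp only [act, Prod.mk_add_mk, Prod.mk.injEq]
    simp
    try omega
  · refine mem_of_bit (bit_of_land (e := 1 + 32 * 3) h (by decide)) ?_
    rw [cellOf_add base 1 3 (by omega)]
    simp only [act, Prod.mk_add_mk, Prod.mk.injEq]
    simp
    try omega
  · refine mem_of_bit (bit_of_land (e := 1 + 32 * 2) h (by decide)) ?_
    rw [cellOf_add base 1 2 (by omega)]
    simp only [act, Prod.mk_add_mk, Prod.mk.injEq]
    simp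
    try omega
  · refine mem_of_bit (bit_of_land (e := 1 + 32 * 1) h (by decide)) ?_
    rw [cellOf_add base 1 1 (by omega)]
    simp only [act, Prod.mk_add_mk, Prod.mk.injEq]
    simp
    try omega
  · refine mem_of_bit (bit_of_land (e := 0 + 32 * 1) h (by decide)) ?_
    rw [cellOf_add base 0 1 (by omega)]
    simp only [act, Prod.mk_add_mk, Prod.mk.injEq]
    simp
    try omega
  · refine mem_of_bit (bit_of_land (e := 0 + 32 * 0) h (by decide)) ?_
    rw [cellOf_add base 0 0 (by omega)]
    simp only [act, Prod.mk_add_mk, Prod.mk.injEq]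
    simp
    try omega

theorem owns_sound {M k : Nat} (h : owns M k = true) : ∃ C, IsCopy C ∧ C ⊆ maskCells M := by
  simp only [owns, Bool.and_eq_true] at h
  obtain ⟨⟨h0, h1⟩, h2⟩ := h
  have h0' : k < 8192 := by simpa [Nat.blt_eq] using h0
  have h1' : k % 32 < 28 := by simpa [Nat.blt_eq] using h1
  have h2' := Nat.eq_of_beq_eq_true h2
  have hbase : k % 1024 % 32 < 28 := by omega
  have ho : k / 1024 < 8 := by omega
  generalize k % 1024 = base at hbase h2'
  generalize k / 1024 = o at ho h2'
  have h3 : ∀ o' : Nat, o = o' → Nat.land (Nat.shiftRight M base) (tmpl o') = tmpl o' := by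
    rintro _ rfl; exact h2'
  rcases o with _ | _ | _ | _ | _ | _ | _ | _ | o
  · exact owns_sound_0 (by omega) (h3 0 rfl)
  · exact owns_sound_1 (by omega) (h3 1 rfl)
  · exact owns_sound_2 (by omega) (h3 2 rfl)
  · exact owns_sound_3 (by omega) (h3 3 rfl)
  · exact owns_sound_4 (by omega) (h3 4 rfl)
  · exact owns_sound_5 (by omega) (h3 5 rfl)
  · exact owns_sound_6 (by omega) (h3 6 rfl)
  · exact owns_sound_7 (by omega) (h3 7 rfl)
  · omega

/-- Checks a certificate with Maker's mask `M`. The result, if any, is the pair: union of the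
zones of the alternatives, intersection of the zones of the alternatives. -/
def chk : Cert → Nat → Option (Nat × Nat)
  | .w k, M => cond (owns M k) (some (0, 0)) none
  | .p c t, M =>
      cond (Nat.beq (Nat.land M (Nat.shiftLeft 1 c)) 0)
        (match chk t (Nat.lor M (Nat.shiftLeft 1 c)) with
        | some (u, i) =>
            cond (Nat.beq i 0)
              (some (Nat.lor u (Nat.shiftLeft 1 c), Nat.lor u (Nat.shiftLeft 1 c))) none
        | none => none)
        none
  | .a s t, M =>
      match chk s M, chk t M with
      | some (u1, i1), some (u2, i2) => some (Nat.lor u1 u2, Nat.land i1 i2)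
      | _, _ => none
  | .r M' t, M => cond (Nat.beq M' M) (chk t M') none
  | .f c e k t, M =>
      cond (Nat.beq (Nat.land M (Nat.shiftLeft 1 c)) 0 &&
          owns (Nat.lor (Nat.lor M (Nat.shiftLeft 1 c)) (Nat.shiftLeft 1 e)) k)
        (match chk t (Nat.lor M (Nat.shiftLeft 1 c)) with
        | some (u, i) =>
            cond (Nat.beq (Nat.land (Nat.shiftLeft 1 e) i) 0)
              (some (Nat.lor (Nat.lor u (Nat.shiftLeft 1 e)) (Nat.shiftLeft 1 c),
                Nat.lor (Nat.lor u (Nat.shiftLeft 1 e)) (Nat.shiftLeft 1 c))) none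
        | none => none)
        none
  | .d c e1 k1 e2 k2, M =>
      cond (Nat.beq (Nat.land M (Nat.shiftLeft 1 c)) 0 && Nat.blt e1 e2 &&
          owns (Nat.lor (Nat.lor M (Nat.shiftLeft 1 c)) (Nat.shiftLeft 1 e1)) k1 &&
          owns (Nat.lor (Nat.lor M (Nat.shiftLeft 1 c)) (Nat.shiftLeft 1 e2)) k2)
        (some (Nat.lor (Nat.lor (Nat.shiftLeft 1 e1) (Nat.shiftLeft 1 e2)) (Nat.shiftLeft 1 c),
          Nat.lor (Nat.lor (Nat.shiftLeft 1 e1) (Nat.shiftLeft 1 e2)) (Nat.shiftLeft 1 c)))
        none

/-- If Maker completes a copy by claiming `e`, then Maker wins, unless Breaker holds `e`. -/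
theorem win_last {M e k : Nat} {B : Finset Cell} (hown : owns (M ||| (1 <<< e)) k = true)
    (he : cellOf e ∉ B) : MakerWins (maskCells M) B := by
  obtain ⟨C, hC, hsub⟩ := owns_sound hown
  rw [maskCells_or_bit] at hsub
  by_cases hm : cellOf e ∈ maskCells M
  · rw [Finset.insert_eq_of_mem hm] at hsub
    exact MakerWins.won C hC hsub
  · exact MakerWins.move (cellOf e) hm he (fun d _ _ => MakerWins.won C hC hsub)

theorem not_mem_of_land {M c : Nat} (h : Nat.land M (Nat.shiftLeft 1 c) = 0) :
    cellOf c ∉ maskCells M := by
  intro hm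
  have h4 := mem_maskCells.1 hm
  have h5 : (M &&& (1 <<< c)).testBit c = false := by
    have : M &&& (1 <<< c) = 0 := h
    rw [this]; simp
  rw [Nat.testBit_and, h4, Nat.one_shiftLeft, Nat.testBit_two_pow] at h5
  simp at h5

theorem mem_bit (c : Nat) : cellOf c ∈ maskCells (1 <<< c) := by
  apply mem_maskCells.2
  rw [Nat.one_shiftLeft, Nat.testBit_two_pow]
  simp

theorem mem_lor_bit (u c : Nat) : cellOf c ∈ maskCells (u ||| (1 <<< c)) :=
  mem_mask_or_right (mem_bit c)

theorem MakerWins.soundness (t : Cert) :
    ∀ {M u i : Nat}, chk t M = some (u, i) →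
      ∀ (B : Finset Cell) (d : Cell), (∀ b ∈ B, b ∉ maskCells u) → d ∉ maskCells i →
        MakerWins (maskCells M) (insert d B) := by
  induction t with
  | w k =>
      intro M u i h B d _ _
      rw [chk] at h
      cases h1 : owns M k with
      | false => rw [h1] at h; simp at h
      | true =>
        obtain ⟨C, hC, hsub⟩ := owns_sound h1
        exact MakerWins.won C hC hsub
  | p c t ih =>
      intro M u i h B d hB hd
      rw [chk] at h
      cases h1 : Nat.beq (Nat.land M (Nat.shiftLeft 1 c)) 0 with
      | false => rw [h1] at h; simp at h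
      | true =>
        rw [h1, cond_true] at h
        split at h
        · rename_i u' i' h2
          cases h3 : Nat.beq i' 0 with
          | false => rw [h3] at h; simp at h
          | true =>
            rw [h3, cond_true] at h
            simp only [Option.some.injEq, Prod.mk.injEq] at h
            obtain ⟨rfl, rfl⟩ := h
            have h1' : Nat.land M (Nat.shiftLeft 1 c) = 0 := Nat.eq_of_beq_eq_true h1
            have h3' : i' = 0 := Nat.eq_of_beq_eq_true h3
            subst h3'
            have hc_in : cellOf c ∈ maskCells (Nat.lor u' (Nat.shiftLeft 1 c)) := mem_lor_bit u' c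
            have hcM : cellOf c ∉ maskCells M := not_mem_of_land h1'
            have hcd : cellOf c ≠ d := by
              intro hcd
              subst hcd
              exact hd hc_in
            have hcB : cellOf c ∉ insert d B := by
              intro hmem
              rcases Finset.mem_insert.1 hmem with h6 | h6
              · exact hcd h6
              · exact hB _ h6 hc_in
            refine MakerWins.move (cellOf c) hcM hcB ?_
            intro d' _ hd'B
            have hM' : insert (cellOf c) (maskCells M) =
                maskCells (Nat.lor M (Nat.shiftLeft 1 c)) :=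
              (maskCells_or_bit M c).symm
            rw [hM']
            refine ih h2 (insert d B) d' ?_ ?_
            · intro b hb hbu
              have hbu' : b ∈ maskCells (Nat.lor u' (Nat.shiftLeft 1 c)) := mem_mask_or_left hbu
              rcases Finset.mem_insert.1 hb with h6 | h6
              · subst h6
                exact hd hbu'
              · exact hB b h6 hbu'
            · rw [show maskCells 0 = ∅ from maskCells_zero]
              simp
        · simp at h
  | a s t ihs iht =>
      intro M u i h B d hB hd
      rw [chk] at h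
      split at h
      · rename_i u1 i1 u2 i2 h1 h2
        simp only [Option.some.injEq, Prod.mk.injEq] at h
        obtain ⟨rfl, rfl⟩ := h
        by_cases hd1 : d ∈ maskCells i1
        · have hd2 : d ∉ maskCells i2 := fun hd2 => hd (mem_mask_and hd1 hd2)
          exact iht h2 B d (fun b hb hbu => hB b hb (mem_mask_or_right hbu)) hd2
        · exact ihs h1 B d (fun b hb hbu => hB b hb (mem_mask_or_left hbu)) hd1
      · simp at h
  | r M' t ih =>
      intro M u i h B d hB hd
      rw [chk] at h
      cases h1 : Nat.beq M' M with
      | false => rw [h1] at h; simp at h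
      | true =>
        rw [h1, cond_true] at h
        have := Nat.eq_of_beq_eq_true h1
        subst this
        exact ih h B d hB hd
  | f c e k t ih =>
      intro M u i h B d hB hd
      rw [chk] at h
      cases h1 : (Nat.beq (Nat.land M (Nat.shiftLeft 1 c)) 0 &&
          owns (Nat.lor (Nat.lor M (Nat.shiftLeft 1 c)) (Nat.shiftLeft 1 e)) k) with
      | false => rw [h1] at h; simp at h
      | true =>
        rw [h1, cond_true] at h
        simp only [Bool.and_eq_true] at h1
        obtain ⟨h1a, h1b⟩ := h1
        split at h
        · rename_i u' i' h2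
          cases h3 : Nat.beq (Nat.land (Nat.shiftLeft 1 e) i') 0 with
          | false => rw [h3] at h; simp at h
          | true =>
            rw [h3, cond_true] at h
            simp only [Option.some.injEq, Prod.mk.injEq] at h
            obtain ⟨rfl, rfl⟩ := h
            have h1' : Nat.land M (Nat.shiftLeft 1 c) = 0 := Nat.eq_of_beq_eq_true h1a
            have h3' : Nat.land (Nat.shiftLeft 1 e) i' = 0 := Nat.eq_of_beq_eq_true h3
            have hc_in : cellOf c ∈ maskCells ((u' ||| (1 <<< e)) ||| (1 <<< c)) := mem_lor_bit _ c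
            have he_in : cellOf e ∈ maskCells ((u' ||| (1 <<< e)) ||| (1 <<< c)) :=
              mem_mask_or_left (mem_lor_bit u' e)
            have hcM : cellOf c ∉ maskCells M := not_mem_of_land h1'
            have hcd : cellOf c ≠ d := by
              intro hcd
              subst hcd
              exact hd hc_in
            have hcB : cellOf c ∉ insert d B := by
              intro hmem
              rcases Finset.mem_insert.1 hmem with h6 | h6
              · exact hcd h6
              · exact hB _ h6 hc_in
            refine MakerWins.move (cellOf c) hcM hcB ?_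
            intro d' _ hd'B
            have hM' : insert (cellOf c) (maskCells M) =
                maskCells (Nat.lor M (Nat.shiftLeft 1 c)) :=
              (maskCells_or_bit M c).symm
            rw [hM']
            by_cases hde : d' = cellOf e
            · subst hde
              refine ih h2 (insert d B) (cellOf e) ?_ ?_
              · intro b hb hbu
                have hbu' : b ∈ maskCells ((u' ||| (1 <<< e)) ||| (1 <<< c)) :=
                  mem_mask_or_left (mem_mask_or_left hbu)
                rcases Finset.mem_insert.1 hb with h6 | h6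
                · subst h6
                  exact hd hbu'
                · exact hB b h6 hbu'
              · intro hei
                have hm := mem_maskCells.1 hei
                have h5 : ((1 <<< e) &&& i').testBit e = false := by
                  have : (1 <<< e) &&& i' = 0 := h3'
                  rw [this]; simp
                rw [Nat.testBit_and, hm, Nat.one_shiftLeft, Nat.testBit_two_pow] at h5
                simp at h5
            · refine win_last h1b ?_
              intro hmem
              rcases Finset.mem_insert.1 hmem with h6 | h6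
              · exact hde h6.symm
              · rcases Finset.mem_insert.1 h6 with h7 | h7
                · subst h7
                  exact hd he_in
                · exact hB _ h7 he_in
        · simp at h
  | d c e1 k1 e2 k2 =>
      intro M u i h B d hB hd
      rw [chk] at h
      cases h1 : (Nat.beq (Nat.land M (Nat.shiftLeft 1 c)) 0 && Nat.blt e1 e2 &&
          owns (Nat.lor (Nat.lor M (Nat.shiftLeft 1 c)) (Nat.shiftLeft 1 e1)) k1 &&
          owns (Nat.lor (Nat.lor M (Nat.shiftLeft 1 c)) (Nat.shiftLeft 1 e2)) k2) with
      | false => rw [h1] at h; simp at h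
      | true =>
        rw [h1, cond_true] at h
        simp only [Bool.and_eq_true] at h1
        obtain ⟨⟨⟨h1a, h1b⟩, h1c⟩, h1d⟩ := h1
        simp only [Option.some.injEq, Prod.mk.injEq] at h
        obtain ⟨rfl, rfl⟩ := h
        have h1' : Nat.land M (Nat.shiftLeft 1 c) = 0 := Nat.eq_of_beq_eq_true h1a
        have hlt : e1 < e2 := by simpa [Nat.blt_eq] using h1b
        have hc_in : cellOf c ∈ maskCells (((1 <<< e1) ||| (1 <<< e2)) ||| (1 <<< c)) :=
          mem_lor_bit _ c
        have he1_in : cellOf e1 ∈ maskCells (((1 <<< e1) ||| (1 <<< e2)) ||| (1 <<< c)) :=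
          mem_mask_or_left (mem_mask_or_left (mem_bit e1))
        have he2_in : cellOf e2 ∈ maskCells (((1 <<< e1) ||| (1 <<< e2)) ||| (1 <<< c)) :=
          mem_mask_or_left (mem_mask_or_right (mem_bit e2))
        have hcM : cellOf c ∉ maskCells M := not_mem_of_land h1'
        have hcd : cellOf c ≠ d := by
          intro hcd
          subst hcd
          exact hd hc_in
        have hcB : cellOf c ∉ insert d B := by
          intro hmem
          rcases Finset.mem_insert.1 hmem with h6 | h6
          · exact hcd h6
          · exact hB _ h6 hc_in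
        refine MakerWins.move (cellOf c) hcM hcB ?_
        intro d' _ hd'B
        have hM' : insert (cellOf c) (maskCells M) =
            maskCells (Nat.lor M (Nat.shiftLeft 1 c)) :=
          (maskCells_or_bit M c).symm
        rw [hM']
        by_cases hde : d' = cellOf e1
        · refine win_last h1d ?_
          intro hmem
          rcases Finset.mem_insert.1 hmem with h6 | h6
          · have := cellOf_injective (h6.trans hde)
            omega
          · rcases Finset.mem_insert.1 h6 with h7 | h7
            · subst h7
              exact hd he2_in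
            · exact hB _ h7 he2_in
        · refine win_last h1c ?_
          intro hmem
          rcases Finset.mem_insert.1 hmem with h6 | h6
          · exact hde h6.symm
          · rcases Finset.mem_insert.1 h6 with h7 | h7
            · subst h7
              exact hd he1_in
            · exact hB _ h7 he1_in

/-! ### Symmetry -/

theorem act_add (s : Bool) (a b : Int) (p q : Cell) :
    act s a b (p + q) = act s a b p + act s a b q := by
  cases s <;> ext <;> simp [act, mul_add]

theorem act_act (s : Bool) (a b : Int) (s' : Bool) (a' b' : Int) :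
    ∃ (s'' : Bool) (a'' b'' : Int), ((a = 1 ∨ a = -1) → (b = 1 ∨ b = -1) →
      (a' = 1 ∨ a' = -1) → (b' = 1 ∨ b' = -1) → (a'' = 1 ∨ a'' = -1) ∧ (b'' = 1 ∨ b'' = -1)) ∧
      ∀ p : Cell, act s a b (act s' a' b' p) = act s'' a'' b'' p := by
  cases s <;> cases s'
  · refine ⟨false, a * a', b * b', ?_, ?_⟩
    · rintro (rfl | rfl) (rfl | rfl) (rfl | rfl) (rfl | rfl) <;> simp
    · intro p; ext <;> simp [act, mul_assoc]
  · refine ⟨true, a * a', b * b', ?_, ?_⟩
    · rintro (rfl | rfl) (rfl | rfl) (rfl | rfl) (rfl | rfl) <;> simp
    · intro p; ext <;> simp [act, mul_assoc]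
  · refine ⟨true, a * b', b * a', ?_, ?_⟩
    · rintro (rfl | rfl) (rfl | rfl) (rfl | rfl) (rfl | rfl) <;> simp
    · intro p; ext <;> simp [act, mul_assoc]
  · refine ⟨false, a * b', b * a', ?_, ?_⟩
    · rintro (rfl | rfl) (rfl | rfl) (rfl | rfl) (rfl | rfl) <;> simp
    · intro p; ext <;> simp [act, mul_assoc]

theorem IsCopy.image_act {C : Finset Cell} (h : IsCopy C) (s : Bool) (a b : Int)
    (ha : a = 1 ∨ a = -1) (hb : b = 1 ∨ b = -1) : IsCopy (C.image (act s a b)) := by
  obtain ⟨t, s', a', b', ha', hb', rfl⟩ := h
  obtain ⟨s'', a'', b'', hab, hact⟩ := act_act s a b s' a' b'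
  obtain ⟨h1, h2⟩ := hab ha hb ha' hb'
  refine ⟨act s a b t, s'', a'', b'', h1, h2, ?_⟩
  rw [Finset.image_image]
  apply Finset.image_congr
  intro p _
  simp only [Function.comp]
  rw [act_add, hact]

/-- The inverse of a signed permutation matrix. -/
def invS (s : Bool) (a b : Int) : Bool × Int × Int :=
  if s then (true, b, a) else (false, a, b)

theorem act_inv_left (s : Bool) (a b : Int) (ha : a = 1 ∨ a = -1) (hb : b = 1 ∨ b = -1)
    (p : Cell) : act (invS s a b).1 (invS s a b).2.1 (invS s a b).2.2 (act s a b p) = p := by
  cases s <;> rcases ha with rfl | rfl <;> rcases hb with rfl | rfl <;> ext <;> simp [act, invS]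

theorem act_inv_right (s : Bool) (a b : Int) (ha : a = 1 ∨ a = -1) (hb : b = 1 ∨ b = -1)
    (p : Cell) : act s a b (act (invS s a b).1 (invS s a b).2.1 (invS s a b).2.2 p) = p := by
  cases s <;> rcases ha with rfl | rfl <;> rcases hb with rfl | rfl <;> ext <;> simp [act, invS]

theorem invS_signs (s : Bool) (a b : Int) (ha : a = 1 ∨ a = -1) (hb : b = 1 ∨ b = -1) :
    ((invS s a b).2.1 = 1 ∨ (invS s a b).2.1 = -1) ∧
      ((invS s a b).2.2 = 1 ∨ (invS s a b).2.2 = -1) := by
  cases s <;> simp [invS, ha, hb]

theorem MakerWins.image_act (s : Bool) (a b : Int) (ha : a = 1 ∨ a = -1) (hb : b = 1 ∨ b = -1)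
    {M B : Finset Cell} (h : MakerWins M B) :
    MakerWins (M.image (act s a b)) (B.image (act s a b)) := by
  have hinj : Function.Injective (act s a b) :=
    Function.LeftInverse.injective (act_inv_left s a b ha hb)
  induction h with
  | won C hC hsub =>
      exact MakerWins.won _ (IsCopy.image_act hC s a b ha hb) (Finset.image_subset_image hsub)
  | @move M B c hcM hcB _ ih =>
      refine MakerWins.move (act s a b c) ?_ ?_ ?_
      · intro h
        obtain ⟨x, hx, hxc⟩ := Finset.mem_image.1 h
        exact hcM (hinj hxc ▸ hx)
      · intro h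
        obtain ⟨x, hx, hxc⟩ := Finset.mem_image.1 h
        exact hcB (hinj hxc ▸ hx)
      · intro d hd hdB
        have hd' : act s a b (act (invS s a b).1 (invS s a b).2.1 (invS s a b).2.2 d) = d :=
          act_inv_right s a b ha hb d
        set d' := act (invS s a b).1 (invS s a b).2.1 (invS s a b).2.2 d with hd'def
        have h1 : d' ∉ insert c M := by
          intro h
          apply hd
          rw [← Finset.image_insert, ← hd']
          exact Finset.mem_image_of_mem _ h
        have h2 : d' ∉ B := by
          intro h
          apply hdB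
          rw [← hd']
          exact Finset.mem_image_of_mem _ h
        have := ih d' h1 h2
        rw [Finset.image_insert, Finset.image_insert, hd'] at this
        exact this

/-! ### Assembling the replies to the first stone -/

/-- Maker's mask after the first stone at the origin. -/
def m0 : Nat := 1 <<< 528

theorem maskCells_m0 : maskCells m0 = {((0 : Int), (0 : Int))} := by
  have h := maskCells_or_bit 0 528
  rw [Nat.zero_or, maskCells_zero] at h
  rw [m0, h]
  rfl

/-- Maker, having the stone at the origin, wins against any reply of Breaker outside `z`. -/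
def WinsOutside (z : Nat) : Prop :=
  ∀ d : Cell, d ∉ maskCells z → MakerWins {((0 : Int), (0 : Int))} {d}

theorem winsOutside_of_chk {t : Cert} {z : Nat} (h : chk t m0 = some (z, z)) : WinsOutside z := by
  intro d hd
  have := MakerWins.soundness t h ∅ d (by simp) hd
  rwa [maskCells_m0] at this

theorem WinsOutside.sym {z : Nat} (h : WinsOutside z) (s : Bool) (a b : Int)
    (ha : a = 1 ∨ a = -1) (hb : b = 1 ∨ b = -1) (d : Cell)
    (hd : act s a b d ∉ maskCells z) : MakerWins {((0 : Int), (0 : Int))} {d} := by
  have h1 := h _ hd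
  obtain ⟨ha', hb'⟩ := invS_signs s a b ha hb
  have h2 := MakerWins.image_act (invS s a b).1 (invS s a b).2.1 (invS s a b).2.2 ha' hb' h1
  rw [Finset.image_singleton, Finset.image_singleton, act_inv_left s a b ha hb] at h2
  have h3 : act (invS s a b).1 (invS s a b).2.1 (invS s a b).2.2 ((0 : Int), (0 : Int)) =
      ((0 : Int), (0 : Int)) := by
    ext <;> simp [act] <;> split <;> simp
  rwa [h3] at h2

/-- The eight signed permutation matrices. -/
def syms : List (Bool × Int × Int) :=
  [(false, 1, 1), (false, -1, 1), (false, 1, -1), (false, -1, -1),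
   (true, 1, 1), (true, -1, 1), (true, 1, -1), (true, -1, -1)]

theorem syms_signs {g : Bool × Int × Int} (h : g ∈ syms) :
    (g.2.1 = 1 ∨ g.2.1 = -1) ∧ (g.2.2 = 1 ∨ g.2.2 = -1) := by
  simp only [syms, List.mem_cons, List.not_mem_nil, or_false] at h
  rcases h with rfl | rfl | rfl | rfl | rfl | rfl | rfl | rfl <;> simp

/-- Membership of a cell in the set of a mask, computed. -/
def inZone (z : Nat) (q : Cell) : Bool :=
  if -16 ≤ q.1 ∧ q.1 < 16 ∧ -16 ≤ q.2 then
    z.testBit ((q.1 + 16).toNat + 32 * (q.2 + 16).toNat)
  else false

theorem not_mem_of_inZone {z : Nat} {q : Cell} (h : inZone z q = false) : q ∉ maskCells z := by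
  intro hq
  obtain ⟨i, rfl, hi⟩ := exists_code_of_mem hq
  unfold inZone at h
  have h1 : (-16 : Int) ≤ (cellOf i).1 ∧ (cellOf i).1 < 16 ∧ (-16 : Int) ≤ (cellOf i).2 := by
    simp only [cellOf]
    omega
  rw [if_pos h1] at h
  have h2 : ((cellOf i).1 + 16).toNat + 32 * ((cellOf i).2 + 16).toNat = i := by
    simp only [cellOf]
    omega
  rw [h2, hi] at h
  exact Bool.noConfusion h

/-- The code `i` is a reply covered by one of the given zones, up to symmetry. -/
def covered (exc : Cell → Bool) (zones : List Nat) (i : Nat) : Bool :=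
  exc (cellOf i) ||
    zones.any fun z => syms.any fun g => !(inZone z (act g.1 g.2.1 g.2.2 (cellOf i)))

theorem wins_of_cover (exc : Cell → Bool) (z0 : Nat) (zones : List Nat)
    (h0 : WinsOutside z0) (hz : ∀ z ∈ zones, WinsOutside z) (hb : z0 < 2 ^ 1024)
    (hc : (List.range 1024).all (fun i => !(z0.testBit i) || covered exc zones i) = true)
    (d : Cell) (hd : exc d = false) : MakerWins {((0 : Int), (0 : Int))} {d} := by
  by_cases hd0 : d ∈ maskCells z0
  · obtain ⟨i, rfl, hi⟩ := exists_code_of_mem hd0
    have hi2 : i < 1024 := by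
      by_contra hge
      have h1 := Nat.ge_two_pow_of_testBit hi
      have h2 : 2 ^ 1024 ≤ 2 ^ i := Nat.pow_le_pow_right (Nat.succ_pos 1) (Nat.le_of_not_lt hge)
      exact Nat.lt_irrefl _ (Nat.lt_of_lt_of_le hb (Nat.le_trans h2 h1))
    have h3 := List.all_eq_true.1 hc i (List.mem_range.2 hi2)
    rw [hi] at h3
    simp only [Bool.not_true, Bool.false_or, covered, hd, List.any_eq_true] at h3
    obtain ⟨z, hzm, g, hg, h4⟩ := h3
    have ⟨ha, hb'⟩ := syms_signs hg
    refine (hz z hzm).sym g.1 g.2.1 g.2.2 ha hb' _ (not_mem_of_inZone ?_)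
    simpa using h4
  · exact h0 d hd0

/-- From all replies to the first stone to the whole game. -/
theorem makerWins_empty (h : ∀ d : Cell, MakerWins {((0 : Int), (0 : Int))} {d}) :
    MakerWins ∅ ∅ := by
  refine MakerWins.move ((0 : Int), (0 : Int)) (by simp) (by simp) ?_
  intro d _ _
  simpa using h d

end Vale.Agent.Lib.P062.V2
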