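import Mathlib.Data.Finset.Image
import Mathlib.Data.Int.Basic
import Mathlib.Algebra.Group.Prod
import Mathlib.Algebra.Ring.Int.Defs

/-!
The Snaky achievement game on the board `ℤ × ℤ`.
Snaky is the hexomino with cells (0,0), (1,0), (2,0), (3,0), (3,1), (4,1).
An allowed copy is `t + R(S)` with `t` a translation and `R` one of the eight signed
permutation matrices.  Maker and Breaker alternately claim one free cell per turn,
Maker first.  `MakerWins M B` says: Maker, to move with cells `M` while Breaker holds `B`,
can force to own all cells of a copy after finitely many turns, whatever Breaker does.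
-/

namespace Vale.Agent.Lib.P062

/-- A cell of the square grid, indexed by its lower-left corner. -/
abbrev Cell := ℤ × ℤ

/-- The Snaky hexomino. -/
def snaky : Finset Cell := {(0, 0), (1, 0), (2, 0), (3, 0), (3, 1), (4, 1)}

/-- The eight signed permutation matrices: for `a, b = ±1`,
`(x, y) ↦ (a x, b y)` if `swap` is false and `(x, y) ↦ (a y, b x)` if `swap` is true. -/
def act (swap : Bool) (a b : ℤ) (p : Cell) : Cell :=
  if swap then (a * p.2, b * p.1) else (a * p.1, b * p.2)

/-- `C` is an allowed copy of Snaky: the image of Snaky under a signed permutation matrix
followed by a translation. -/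
def IsCopy (C : Finset Cell) : Prop :=
  ∃ (t : Cell) (swap : Bool) (a b : ℤ), (a = 1 ∨ a = -1) ∧ (b = 1 ∨ b = -1) ∧
    C = snaky.image (fun p => t + act swap a b p)

/-- `MakerWins M B`: Maker holds `M`, Breaker holds `B`, and it is Maker's turn; Maker has a
strategy that wins after finitely many turns against every legal play of Breaker.
This is the least predicate closed under two rules: Maker already owns a copy (`won`);
or Maker claims a free cell `c` and, for every free cell `d` that Breaker then claims, the
resulting position is again winning (`move`). -/
inductive MakerWins : Finset Cell → Finset Cell → Prop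
  | won {M B : Finset Cell} (C : Finset Cell) (hC : IsCopy C) (hsub : C ⊆ M) : MakerWins M B
  | move {M B : Finset Cell} (c : Cell) (hcM : c ∉ M) (hcB : c ∉ B)
      (next : ∀ d : Cell, d ∉ insert c M → d ∉ B → MakerWins (insert c M) (insert d B)) :
      MakerWins M B

end Vale.Agent.Lib.P062
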