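import Vale.Agent.Lib.P062.Check2

/-!
Reduction of the game to a single position: after Maker's stone at the origin and Breaker's
reply `(1, 0)`, Maker answers with `(0, 1)`. Every reply of Breaker but `(0, 2)` is covered by
certificates.
-/

namespace Vale.Agent.Lib.P062.V2

/-- The certificate zone `z` wins at mask `M`. -/
def WinsAt (M z : Nat) : Prop :=
  ∀ (B : Finset Cell) (d : Cell), (∀ b ∈ B, b ∉ maskCells z) → d ∉ maskCells z →
    MakerWins (maskCells M) (insert d B)

theorem winsAt_of_chk {t : Cert} {M z : Nat} (h : chk t M = some (z, z)) : WinsAt M z :=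
  fun B d hB hd => MakerWins.soundness t h B d hB hd

/-- Maker's mask after the stones `(0, 0)` and `(0, 1)`. -/
def m2 : Nat := (1 <<< 528) ||| (1 <<< 560)

theorem maskCells_m2 : maskCells m2 = {((0 : Int), (0 : Int)), ((0 : Int), (1 : Int))} := by
  have h := maskCells_or_bit (1 <<< 528) 560
  have h1 : maskCells (1 <<< 528) = {((0 : Int), (0 : Int))} := maskCells_m0
  rw [h1] at h
  rw [m2, h, Finset.pair_comm]
  rfl

theorem wins_second_stone
    (h : MakerWins {((0 : Int), (0 : Int)), ((0 : Int), (1 : Int))}
      {((1 : Int), (0 : Int)), ((0 : Int), (2 : Int))})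
    (z0 : Nat) (zones : List Nat) (h0 : WinsAt m2 z0) (hz : ∀ z ∈ zones, WinsAt m2 z)
    (hb : z0 < 2 ^ 1024)
    (hc : (List.range 1024).all
      (fun i => !(z0.testBit i) || Nat.beq i 592 || zones.any (fun z => !(z.testBit i))) = true)
    (h10 : (z0 :: zones).all (fun z => !(z.testBit 529)) = true) :
    MakerWins {((0 : Int), (0 : Int))} {((1 : Int), (0 : Int))} := by
  have h10' : ∀ z ∈ z0 :: zones, ∀ b ∈ ({((1 : Int), (0 : Int))} : Finset Cell),
      b ∉ maskCells z := by
    intro z hzm b hb' hbz
    have hb1 : b = cellOf 529 := by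
      rw [Finset.mem_singleton.1 hb']
      rfl
    rw [hb1] at hbz
    have h1 := mem_maskCells.1 hbz
    have h2 := List.all_eq_true.1 h10 z hzm
    rw [h1] at h2
    exact Bool.noConfusion h2
  refine MakerWins.move ((0 : Int), (1 : Int)) (by simp) (by simp) ?_
  intro d _ _
  have hM : insert ((0 : Int), (1 : Int)) ({((0 : Int), (0 : Int))} : Finset Cell) = maskCells m2 := by
    rw [maskCells_m2, Finset.pair_comm]
  rw [hM]
  by_cases hd2 : d = ((0 : Int), (2 : Int))
  · subst hd2
    rw [maskCells_m2, Finset.pair_comm ((0 : Int), (2 : Int))]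
    exact h
  · by_cases hd0 : d ∈ maskCells z0
    · obtain ⟨i, rfl, hi⟩ := exists_code_of_mem hd0
      have hi2 : i < 1024 := by
        by_contra hge
        have h1 := Nat.ge_two_pow_of_testBit hi
        have h2 : 2 ^ 1024 ≤ 2 ^ i :=
          Nat.pow_le_pow_right (Nat.succ_pos 1) (Nat.le_of_not_lt hge)
        exact Nat.lt_irrefl _ (Nat.lt_of_lt_of_le hb (Nat.le_trans h2 h1))
      have h3 := List.all_eq_true.1 hc i (List.mem_range.2 hi2)
      rw [hi] at h3
      have hne : i ≠ 592 := by
        rintro rfl
        exact hd2 rfl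
      have hbeq : Nat.beq i 592 = false := by
        cases hx : Nat.beq i 592 with
        | false => rfl
        | true => exact absurd (Nat.eq_of_beq_eq_true hx) hne
      rw [hbeq] at h3
      simp only [Bool.not_true, Bool.false_or, List.any_eq_true] at h3
      obtain ⟨z, hzm, h4⟩ := h3
      refine hz z hzm _ _ (h10' z (List.mem_cons_of_mem _ hzm)) ?_
      intro hm
      have h5 := mem_maskCells.1 hm
      rw [h5] at h4
      exact Bool.noConfusion h4
    · exact h0 _ _ (h10' z0 List.mem_cons_self) hd0

end Vale.Agent.Lib.P062.V2
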